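import Mathlib

/-! P034: abstract Markov kernel lemma (fractional cover by stopped paths). -/

namespace Vale.Agent.H21.P034

open Finset

variable {α : Type*} [Fintype α] [DecidableEq α]

theorem abs_pi_aux (T : Finset α → Finset α → ℝ) (hT0 : ∀ O Y, 0 ≤ T O Y)
    (hTs : ∀ O Y, T O Y ≠ 0 → Y.Nonempty ∧ Disjoint Y O)
    (heavy target : Finset α → Prop) (_htar : ∀ V, target V → heavy V)
    (W : Finset α) {d : ℝ} (hd : 0 ≤ d)
    (ha : ∀ O V, W ⊆ O → O ⊆ V → ¬ heavy O → target V → 1 ≤ ∑ Y ∈ V.powerset, T O Y)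
    (hb : ∀ O, W ⊆ O → ¬ heavy O → ∑ Y, T O Y * d ^ Y.card ≤ 1) :
    ∀ n : ℕ, ∀ V : Finset α, W ⊆ V → (univ \ V).card = n →
    ∃ π : Finset α → ℝ, (∀ O, 0 ≤ π O) ∧ (∀ O, π O ≠ 0 → V ⊆ O ∧ heavy O) ∧
      (∀ U, V ⊆ U → target U → 1 ≤ ∑ O ∈ U.powerset, π O) ∧
      (∑ O, π O * d ^ (O \ V).card ≤ 1) ∧
      (¬ heavy V → ∑ O, π O * d ^ (O \ V).card ≤ ∑ Y, T V Y * d ^ Y.card) := by
  classical
  intro n
  induction n using Nat.strong_induction_on with
  | _ n ih =>
  intro V hWV hV
  by_cases hL : heavy V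
  · refine ⟨fun O => if O = V then 1 else 0, fun O => by dsimp only; split_ifs <;> norm_num,
      ?_, ?_, ?_, ?_⟩
    · intro O hO
      by_cases h : O = V
      · subst h; exact ⟨Finset.Subset.refl _, hL⟩
      · simp [h] at hO
    · intro U hU _
      rw [Finset.sum_ite_eq' U.powerset V (fun _ => (1 : ℝ)), if_pos (Finset.mem_powerset.mpr hU)]
    · have : ∀ O : Finset α, (if O = V then (1 : ℝ) else 0) * d ^ (O \ V).card
          = if O = V then 1 else 0 := by
        intro O
        by_cases h : O = V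
        · subst h; simp
        · simp [h]
      rw [Finset.sum_congr rfl (fun O _ => this O)]
      simp
    · intro h; exact absurd hL h
  · have hP : ∀ Y : Finset α, ∃ π : Finset α → ℝ, (∀ O, 0 ≤ π O) ∧
        ((Y.Nonempty ∧ Disjoint Y V) →
        ((∀ O, π O ≠ 0 → V ∪ Y ⊆ O ∧ heavy O) ∧
        (∀ U, V ∪ Y ⊆ U → target U → 1 ≤ ∑ O ∈ U.powerset, π O) ∧
        (∑ O, π O * d ^ (O \ (V ∪ Y)).card ≤ 1))) := by
      intro Y
      by_cases hY : Y.Nonempty ∧ Disjoint Y V
      · have hlt : (univ \ (V ∪ Y)).card < n := by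
          rw [← hV]
          apply Finset.card_lt_card
          obtain ⟨y, hy⟩ := hY.1
          rw [Finset.ssubset_iff_of_subset]
          · exact ⟨y, by simp [Finset.disjoint_left.mp hY.2 hy], by simp [hy]⟩
          · exact Finset.sdiff_subset_sdiff (Finset.Subset.refl _) Finset.subset_union_left
        obtain ⟨π, h1, h2, h3, h4, _⟩ := ih _ hlt (V ∪ Y)
          (hWV.trans Finset.subset_union_left) rfl
        exact ⟨π, h1, fun _ => ⟨h2, h3, h4⟩⟩
      · exact ⟨fun _ => 0, fun _ => le_refl _, fun h => absurd h hY⟩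
    choose P hP0 hP1 using hP
    have hcost : ∑ O, (∑ Y, T V Y * P Y O) * d ^ (O \ V).card
        ≤ ∑ Y, T V Y * d ^ Y.card := by
      have h1 : ∑ O, (∑ Y, T V Y * P Y O) * d ^ (O \ V).card
          = ∑ Y, T V Y * ∑ O, P Y O * d ^ (O \ V).card := by
        simp_rw [Finset.sum_mul, Finset.mul_sum]
        rw [Finset.sum_comm]
        refine Finset.sum_congr rfl (fun Y _ => Finset.sum_congr rfl (fun O _ => by ring))
      rw [h1]
      refine Finset.sum_le_sum (fun Y _ => ?_)
      by_cases hTY : T V Y = 0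
      · rw [hTY]; simp
      · have hY := hTs V Y hTY
        obtain ⟨h2, _, h4⟩ := hP1 Y hY
        have h5 : ∑ O, P Y O * d ^ (O \ V).card
            = d ^ Y.card * ∑ O, P Y O * d ^ (O \ (V ∪ Y)).card := by
          rw [Finset.mul_sum]
          refine Finset.sum_congr rfl (fun O _ => ?_)
          by_cases hO : P Y O = 0
          · rw [hO]; simp
          · obtain ⟨h6, _⟩ := h2 O hO
            have h7 : (O \ V).card = Y.card + (O \ (V ∪ Y)).card := by
              have h8 : O \ V = Y ∪ (O \ (V ∪ Y)) := by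
                ext x
                simp only [Finset.mem_sdiff, Finset.mem_union]
                constructor
                · rintro ⟨hx, hx2⟩
                  by_cases hxY : x ∈ Y
                  · exact Or.inl hxY
                  · exact Or.inr ⟨hx, by rintro (h | h); exacts [hx2 h, hxY h]⟩
                · rintro (hx | ⟨hx, hx2⟩)
                  · exact ⟨h6 (Finset.mem_union_right _ hx), Finset.disjoint_left.mp hY.2 hx⟩
                  · exact ⟨hx, fun h => hx2 (Or.inl h)⟩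
              rw [h8, Finset.card_union_of_disjoint]
              rw [Finset.disjoint_left]
              intro x hx hx2
              exact (Finset.mem_sdiff.mp hx2).2 (Finset.mem_union_right _ hx)
            rw [h7, pow_add]; ring
        rw [h5]
        have h9 : d ^ Y.card * ∑ O, P Y O * d ^ (O \ (V ∪ Y)).card ≤ d ^ Y.card := by
          have : 0 ≤ d ^ Y.card := pow_nonneg hd _
          nlinarith
        exact mul_le_mul_of_nonneg_left h9 (hT0 V Y)
    refine ⟨fun O => ∑ Y, T V Y * P Y O, ?_, ?_, ?_, ?_, ?_⟩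
    · intro O
      exact Finset.sum_nonneg (fun Y _ => mul_nonneg (hT0 V Y) (hP0 Y O))
    · intro O hO
      obtain ⟨Y, _, hY⟩ := Finset.exists_ne_zero_of_sum_ne_zero hO
      have hTY : T V Y ≠ 0 := by
        intro h; apply hY; rw [h]; simp
      have hPY : P Y O ≠ 0 := by
        intro h; apply hY; rw [h]; simp
      obtain ⟨h2, _, _⟩ := hP1 Y (hTs V Y hTY)
      obtain ⟨h6, h7⟩ := h2 O hPY
      exact ⟨Finset.subset_union_left.trans h6, h7⟩
    · intro U hVU hU
      have h1 : ∑ O ∈ U.powerset, (∑ Y, T V Y * P Y O)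
          = ∑ Y, T V Y * ∑ O ∈ U.powerset, P Y O := by
        rw [Finset.sum_comm]
        refine Finset.sum_congr rfl (fun Y _ => ?_)
        rw [Finset.mul_sum]
      rw [h1]
      have h2 : ∑ Y ∈ U.powerset, T V Y
          ≤ ∑ Y, T V Y * ∑ O ∈ U.powerset, P Y O := by
        calc ∑ Y ∈ U.powerset, T V Y
            ≤ ∑ Y ∈ U.powerset, T V Y * ∑ O ∈ U.powerset, P Y O := by
              refine Finset.sum_le_sum (fun Y hYU => ?_)
              by_cases hTY : T V Y = 0
              · rw [hTY]; simp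
              · obtain ⟨_, h3, _⟩ := hP1 Y (hTs V Y hTY)
                have h4 := h3 U (Finset.union_subset hVU (Finset.mem_powerset.mp hYU)) hU
                have h5 : 0 ≤ T V Y := hT0 V Y
                nlinarith
          _ ≤ _ := by
              refine Finset.sum_le_sum_of_subset_of_nonneg (Finset.subset_univ _)
                (fun Y _ _ => ?_)
              exact mul_nonneg (hT0 V Y) (Finset.sum_nonneg (fun O _ => hP0 Y O))
      exact le_trans (ha V U hWV hVU hL hU) h2
    · exact le_trans hcost (hb V hWV hL)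
    · intro _; exact hcost

/-- Abstract form of the kernel lemma: paths start at the non-heavy set `W` and stop at
heavy sets. -/
theorem abs_pi (T : Finset α → Finset α → ℝ) (hT0 : ∀ O Y, 0 ≤ T O Y)
    (hTs : ∀ O Y, T O Y ≠ 0 → Y.Nonempty ∧ Disjoint Y O)
    (heavy target : Finset α → Prop) (_htar : ∀ V, target V → heavy V)
    (W : Finset α) (hW : ¬ heavy W) {d : ℝ} (hd : 0 ≤ d)
    (ha : ∀ O V, W ⊆ O → O ⊆ V → ¬ heavy O → target V → 1 ≤ ∑ Y ∈ V.powerset, T O Y)
    (hb : ∀ O, W ⊆ O → ¬ heavy O → ∑ Y, T O Y * d ^ Y.card ≤ 1) :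
    ∃ π : Finset α → ℝ, (∀ O, 0 ≤ π O) ∧ (∀ O, π O ≠ 0 → W ⊆ O ∧ heavy O) ∧
      (∀ U, W ⊆ U → target U → 1 ≤ ∑ O ∈ U.powerset, π O) ∧
      (∑ O, π O * d ^ (O \ W).card ≤ ∑ Y, T W Y * d ^ Y.card) := by
  obtain ⟨π, h1, h2, h3, _, h5⟩ := abs_pi_aux T hT0 hTs heavy target _htar W hd ha hb _ W
    (Finset.Subset.refl _) rfl
  exact ⟨π, h1, h2, h3, h5 hW⟩

end Vale.Agent.H21.P034
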