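import Mathlib

/-!
P034, row C: change of measure for labelled fragments.
Labels `l : X → ι` have weight `∏ x, p (l x)`.  A labelled fragment of `l` is a pair
`(T, l')` with `l' = l` off `T` (the label classes of `T` are `{x ∈ T | l' x = i}`).
-/

namespace Vale.Agent.H21.P034

open Finset

variable {X ι : Type*} [Fintype X] [DecidableEq X] [Fintype ι] [DecidableEq ι]

omit [DecidableEq ι] in
/-- Sum of the weights of the labels that agree with `l'` off `T`. -/
theorem sum_agree_le (p : ι → ℝ) (hp : ∀ i, 0 < p i) (hsum : ∑ i, p i ≤ 1)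
    (T : Finset X) (l' : X → ι) :
    ∑ l ∈ Fintype.piFinset (fun x => if x ∈ T then (univ : Finset ι) else {l' x}),
      ∏ x, p (l x) ≤ ∏ x ∈ Tᶜ, p (l' x) := by
  classical
  rw [← Finset.prod_univ_sum (fun x => if x ∈ T then (univ : Finset ι) else {l' x})
    (fun _ i => p i)]
  have h1 : ∏ x ∈ Tᶜ, p (l' x) = ∏ x, (if x ∈ T then (1 : ℝ) else p (l' x)) := by
    rw [← Finset.prod_mul_prod_compl T (fun x => if x ∈ T then (1 : ℝ) else p (l' x))]
    have e1 : ∏ x ∈ T, (if x ∈ T then (1 : ℝ) else p (l' x)) = 1 :=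
      Finset.prod_eq_one fun x hx => by simp [hx]
    rw [e1, one_mul]
    refine Finset.prod_congr rfl ?_
    intro x hx
    have : x ∉ T := by simpa using hx
    simp [this]
  rw [h1]
  refine Finset.prod_le_prod ?_ ?_
  · intro x _
    exact Finset.sum_nonneg fun i _ => (hp i).le
  · intro x _
    by_cases hx : x ∈ T
    · simpa [hx] using hsum
    · simp [hx]

/-- **Change of measure.** -/
theorem change_of_measure (p : ι → ℝ) (hp : ∀ i, 0 < p i) (hsum : ∑ i, p i ≤ 1)
    (q : ℝ) (hq : 0 ≤ q)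
    (Frag : (X → ι) → Finset (Finset X × (X → ι)))
    (hF : ∀ l, ∀ z ∈ Frag l, ∀ x, x ∉ z.1 → z.2 x = l x)
    (U : (X → ι) → Finset (Finset X)) (hU : ∀ l, ∀ z ∈ Frag l, z.1 ∈ U z.2) :
    ∑ l : X → ι, (∏ x, p (l x)) * ∑ z ∈ Frag l, q ^ z.1.card
      ≤ ∑ l' : X → ι, (∏ x, p (l' x)) * ∑ T ∈ U l', ∏ x ∈ T, (q / p (l' x)) := by
  classical
  have hP : ∀ l : X → ι, 0 ≤ ∏ x, p (l x) := fun l =>
    Finset.prod_nonneg fun x _ => (hp _).le
  -- the left side as a sum over all pairs
  have h1 : ∀ l : X → ι, (∏ x, p (l x)) * ∑ z ∈ Frag l, q ^ z.1.card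
      = ∑ z : Finset X × (X → ι), if z ∈ Frag l then (∏ x, p (l x)) * q ^ z.1.card else 0 := by
    intro l
    rw [Finset.mul_sum, ← Finset.sum_filter]
    refine Finset.sum_congr ?_ fun _ _ => rfl
    ext z; simp
  have hL : ∑ l : X → ι, (∏ x, p (l x)) * ∑ z ∈ Frag l, q ^ z.1.card
      = ∑ z : Finset X × (X → ι), ∑ l : X → ι,
        if z ∈ Frag l then (∏ x, p (l x)) * q ^ z.1.card else 0 := by
    rw [Finset.sum_comm]
    exact Finset.sum_congr rfl fun l _ => h1 l
  rw [hL]
  -- the right side as a sum over all pairs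
  have h2 : ∀ l' : X → ι, (∏ x, p (l' x)) * ∑ T ∈ U l', ∏ x ∈ T, (q / p (l' x))
      = ∑ T : Finset X, if T ∈ U l' then q ^ T.card * ∏ x ∈ Tᶜ, p (l' x) else 0 := by
    intro l'
    rw [Finset.mul_sum, ← Finset.sum_filter]
    have hf : (univ.filter fun T => T ∈ U l') = U l' := by ext T; simp
    rw [hf]
    refine Finset.sum_congr rfl fun T _ => ?_
    rw [Finset.prod_div_distrib, Finset.prod_const, ← Finset.prod_mul_prod_compl T]
    have hne : ∏ x ∈ T, p (l' x) ≠ 0 := Finset.prod_ne_zero_iff.2 fun x _ => (hp _).ne'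
    field_simp
  have hR : ∑ l' : X → ι, (∏ x, p (l' x)) * ∑ T ∈ U l', ∏ x ∈ T, (q / p (l' x))
      = ∑ z : Finset X × (X → ι),
        if z.1 ∈ U z.2 then q ^ z.1.card * ∏ x ∈ z.1ᶜ, p (z.2 x) else 0 := by
    rw [Fintype.sum_prod_type, Finset.sum_comm]
    exact Finset.sum_congr rfl fun l' _ => h2 l'
  rw [hR]
  refine Finset.sum_le_sum fun z _ => ?_
  obtain ⟨T, l'⟩ := z
  by_cases hT : T ∈ U l'
  · simp only [hT, if_true]
    have h3 : ∑ l : X → ι, (if (T, l') ∈ Frag l then (∏ x, p (l x)) * q ^ T.card else 0)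
        ≤ ∑ l ∈ Fintype.piFinset (fun x => if x ∈ T then (univ : Finset ι) else {l' x}),
          (∏ x, p (l x)) * q ^ T.card := by
      rw [← Finset.sum_filter]
      refine Finset.sum_le_sum_of_subset_of_nonneg ?_ ?_
      · intro l hl
        have hl' := (Finset.mem_filter.1 hl).2
        rw [Fintype.mem_piFinset]
        intro x
        by_cases hx : x ∈ T
        · simp [hx]
        · have := hF l _ hl' x hx
          simp only [hx, if_false, Finset.mem_singleton]
          exact this.symm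
      · intro l _ _
        exact mul_nonneg (hP l) (pow_nonneg hq _)
    refine h3.trans ?_
    rw [← Finset.sum_mul, mul_comm]
    exact mul_le_mul_of_nonneg_left (sum_agree_le p hp hsum T l') (pow_nonneg hq _)
  · simp only [hT, if_false]
    refine (Finset.sum_nonpos fun l _ => ?_)
    have : (T, l') ∉ Frag l := fun h => hT (hU l _ h)
    simp [this]

end Vale.Agent.H21.P034
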